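import Vale.Agent.P131.End

namespace Vale.Agent.Results.P131.Counterexample

open Vale.Agent.P131 in
/-- On every separable infinite-dimensional complex Hilbert space there is a nonscalar bounded
operator whose only closed hyperinvariant subspaces are `0` and the whole space. -/
theorem result (E : Type*) [NormedAddCommGroup E] [InnerProductSpace ℂ E] [CompleteSpace E]
    [TopologicalSpace.SeparableSpace E] (hE : ¬ FiniteDimensional ℂ E) :
    ∃ T : E →L[ℂ] E, (∀ c : ℂ, T ≠ c • 1) ∧
      ∀ M : Submodule ℂ E, IsClosed (M : Set E) →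
        (∀ A : E →L[ℂ] E, A * T = T * A → ∀ x ∈ M, A x ∈ M) → M = ⊥ ∨ M = ⊤ := by
  obtain ⟨w, b, -⟩ := exists_hilbertBasis ℂ E
  have hc : Countable w := by
    refine Pairwise.countable_of_isOpen_disjoint (s := fun i : w => Metric.ball (b i) (1 / 2))
      (fun i j hij => Metric.ball_disjoint_ball ?_) (fun _ => Metric.isOpen_ball)
      fun _ => Metric.nonempty_ball.mpr (by norm_num)
    have h1 := norm_inner_le_norm (𝕜 := ℂ) (b i) (b i - b j)
    rw [inner_sub_right, b.orthonormal.2 hij, inner_self_eq_norm_sq_to_K, b.orthonormal.1 i] at h1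
    rw [dist_eq_norm]
    norm_num at h1 ⊢
    exact h1
  have hi : Infinite w := by
    by_contra hh
    have := not_infinite_iff_finite.mp hh
    have := Fintype.ofFinite w
    exact hE (Module.Finite.of_basis b.toOrthonormalBasis.toBasis)
  obtain ⟨e⟩ : Nonempty (Λ ≃ w) := nonempty_equiv_of_countable
  let b' : HilbertBasis Λ ℂ E := HilbertBasis.mk (b.orthonormal.comp e e.injective) (by
    rw [e.surjective.range_comp]
    exact b.dense_span.ge)
  let U : E ≃L[ℂ] H := b'.repr.toContinuousLinearEquiv
  obtain ⟨T, h1, h2⟩ := main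
  refine ⟨(U.symm : H →L[ℂ] E) ∘L T ∘L (U : E →L[ℂ] H), fun c hc => h1 c ?_, fun M hM hA => ?_⟩
  · ext1 v
    have := congrArg (fun S : E →L[ℂ] E => U (S (U.symm v))) hc
    simpa using this
  · have := h2 (M.comap (U.symm : H →L[ℂ] E).toLinearMap) (hM.preimage U.symm.continuous)
      fun A hAT x hx => by
        have := hA ((U.symm : H →L[ℂ] E) ∘L A ∘L (U : E →L[ℂ] H)) (by
          ext1 v
          have := congrArg (fun S : H →L[ℂ] H => U.symm (S (U v))) hAT
          simpa using this) _ hx
        simpa using this
    rcases this with h | h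
    · refine Or.inl (eq_bot_iff.mpr fun v hv => ?_)
      have : U v ∈ M.comap (U.symm : H →L[ℂ] E).toLinearMap := by simpa using hv
      rw [h] at this
      simpa using this
    · refine Or.inr (eq_top_iff.mpr fun v _ => ?_)
      have : U v ∈ M.comap (U.symm : H →L[ℂ] E).toLinearMap := by rw [h]; trivial
      simpa using this

end Vale.Agent.Results.P131.Counterexample
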